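import Vale.Agent.Lib.P154Anti.LatStep3
import Vale.Agent.Lib.P154Anti.Cert.D8.Levels0
import Vale.Agent.Lib.P154Anti.Cert.D8.Levels1
import Vale.Agent.Lib.P154Anti.Cert.D8.Levels2
import Vale.Agent.Lib.P154Anti.Cert.D8.Levels3
import Vale.Agent.Lib.P154Anti.Cert.D8.Levels4
import Vale.Agent.Lib.P154Anti.Cert.D8.Levels5
import Vale.Agent.Lib.P154Anti.Cert.D8.Levels6

namespace Vale.Agent.Lib.P154Anti.Cert.D8

open Vale.Agent.Lib.P154Anti Vale.Agent.Lib.P154

theorem fin_ok : finalOK3 cfg par tblI0 tblE0 Q66 40 61950409899 6149187544 = true := by decide +kernel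

theorem inv_all (m : ℕ) : InvE cfg 6 (m + 66) Q66 := by
  have G0 := good3 cfg_ok par_ok tbl_ok0
  have hd : cfg.d = 6 + 2 := rfl
  have h0 : InvE cfg 6 m Q0 := invE_zero G0.dst G0.cfg 6 m
  have h1 := invE_step3 hd G0 L0 h0
  have h2 := invE_step3 hd G0 L1 h1
  have h3 := invE_step3 hd G0 L2 h2
  have h4 := invE_step3 hd G0 L3 h3
  have h5 := invE_step3 hd G0 L4 h4
  have h6 := invE_step3 hd G0 L5 h5
  have h7 := invE_step3 hd G0 L6 h6
  have h8 := invE_step3 hd G0 L7 h7
  have h9 := invE_step3 hd G0 L8 h8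
  have h10 := invE_step3 hd G0 L9 h9
  have h11 := invE_step3 hd G0 L10 h10
  have h12 := invE_step3 hd G0 L11 h11
  have h13 := invE_step3 hd G0 L12 h12
  have h14 := invE_step3 hd G0 L13 h13
  have h15 := invE_step3 hd G0 L14 h14
  have h16 := invE_step3 hd G0 L15 h15
  have h17 := invE_step3 hd G0 L16 h16
  have h18 := invE_step3 hd G0 L17 h17
  have h19 := invE_step3 hd G0 L18 h18
  have h20 := invE_step3 hd G0 L19 h19
  have h21 := invE_step3 hd G0 L20 h20
  have h22 := invE_step3 hd G0 L21 h21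
  have h23 := invE_step3 hd G0 L22 h22
  have h24 := invE_step3 hd G0 L23 h23
  have h25 := invE_step3 hd G0 L24 h24
  have h26 := invE_step3 hd G0 L25 h25
  have h27 := invE_step3 hd G0 L26 h26
  have h28 := invE_step3 hd G0 L27 h27
  have h29 := invE_step3 hd G0 L28 h28
  have h30 := invE_step3 hd G0 L29 h29
  have h31 := invE_step3 hd G0 L30 h30
  have h32 := invE_step3 hd G0 L31 h31
  have h33 := invE_step3 hd G0 L32 h32
  have h34 := invE_step3 hd G0 L33 h33
  have h35 := invE_step3 hd G0 L34 h34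
  have h36 := invE_step3 hd G0 L35 h35
  have h37 := invE_step3 hd G0 L36 h36
  have h38 := invE_step3 hd G0 L37 h37
  have h39 := invE_step3 hd G0 L38 h38
  have h40 := invE_step3 hd G0 L39 h39
  have h41 := invE_step3 hd G0 L40 h40
  have h42 := invE_step3 hd G0 L41 h41
  have h43 := invE_step3 hd G0 L42 h42
  have h44 := invE_step3 hd G0 L43 h43
  have h45 := invE_step3 hd G0 L44 h44
  have h46 := invE_step3 hd G0 L45 h45
  have h47 := invE_step3 hd G0 L46 h46
  have h48 := invE_step3 hd G0 L47 h47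
  have h49 := invE_step3 hd G0 L48 h48
  have h50 := invE_step3 hd G0 L49 h49
  have h51 := invE_step3 hd G0 L50 h50
  have h52 := invE_step3 hd G0 L51 h51
  have h53 := invE_step3 hd G0 L52 h52
  have h54 := invE_step3 hd G0 L53 h53
  have h55 := invE_step3 hd G0 L54 h54
  have h56 := invE_step3 hd G0 L55 h55
  have h57 := invE_step3 hd G0 L56 h56
  have h58 := invE_step3 hd G0 L57 h57
  have h59 := invE_step3 hd G0 L58 h58
  have h60 := invE_step3 hd G0 L59 h59
  have h61 := invE_step3 hd G0 L60 h60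
  have h62 := invE_step3 hd G0 L61 h61
  have h63 := invE_step3 hd G0 L62 h62
  have h64 := invE_step3 hd G0 L63 h63
  have h65 := invE_step3 hd G0 L64 h64
  have h66 := invE_step3 hd G0 L65 h65
  exact h66

/-- The depth from which the bounds hold. -/
def depth : ℕ := 67

/-- The bound of the second moment. -/
noncomputable def y0 : ℝ := (61950409899 : ℝ) / 2 ^ 40

/-- The bound of the fourth moment. -/
noncomputable def m0 : ℝ := (6149187544 : ℝ) / 2 ^ 40

/-- The moments at all depths from `depth` on, for every `lam` between `lamOf cfg` and `0`. -/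
theorem moments {lam : ℝ} (h0 : lamOf cfg ≤ lam) (h1 : lam ≤ 0) (n : ℕ) (hn : depth ≤ n) :
    PhiN 6 lam p2T n ≤ y0 ∧ PhiN 6 lam (fun c => p2T c ^ 2) n ≤ m0 := by
  obtain ⟨m, rfl⟩ : ∃ m, n = m + 66 + 1 := ⟨n - 67, by simp only [depth] at hn; omega⟩
  exact final_bound3 (k := 6) (n := m + 66) rfl cfg_ok par_ok tbl_ok0 fin_ok (inv_all m) h0 h1

/-- The lattice lower end of the eigenvalue. -/
theorem lamOf_cfg : lamOf cfg = -(3536 : ℝ) / 10000 := by
  simp only [lamOf, cfg]
  norm_num

end Vale.Agent.Lib.P154Anti.Cert.D8
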